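import Vale.Agent.Lib.P356.Volume

namespace Vale.Agent.Results.P356.A_volume

open Vale.Agent.Lib.P356

/-- For all `q ≥ 2`, `R`, `J > 0`, `Δ > 0` there are `c > 0` and `C` such that every ground state
of an admissible Hamiltonian on `{1,...,L}²` with spectral gap at least `Δ` satisfies
`S_Ω(A) ≤ (log q - c) min(|A|, |Aᶜ|) + C |∂A|` for all `L` and all sets of sites `A`. -/
theorem result (q R : ℕ) (hq : 2 ≤ q) (J Δ : ℝ) (hJ : 0 < J) (hΔ : 0 < Δ) :
    ∃ c : ℝ, 0 < c ∧ ∃ C : ℝ, ∀ (L : ℕ)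
      (h : Finset (Site L) → Matrix (Site L → Fin q) (Site L → Fin q) ℂ) (E₀ : ℝ)
      (Ω : (Site L → Fin q) → ℂ),
      IsAdmissible R J h → IsGappedGroundState (hamiltonian R h) Δ E₀ Ω →
      ∀ A : Finset (Site L), entropy (reduced A Ω) ≤
        (Real.log q - c) * (min A.card Aᶜ.card : ℕ) + C * (edgeBoundary A).card :=
  volume_bound_min q R hq J Δ hJ hΔ

end Vale.Agent.Results.P356.A_volume
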